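import Vale.Agent.Lib.P210.TwoEnd

namespace Vale.Agent.Results.P210.RotSymAllEnds

open Vale.Agent.Lib.P210

/-- Rotationally symmetric metrics `dr² + f(r)² g_{S^{n-1}}`, `n ≥ 3`, with scalar curvature
`(n-1)(n-2)(1 - f'²)/f² - 2(n-1) f''/f` at least one: the warping function `f`, which is the
radius of the sphere at the parameter `r`, is at most `sqrt (n (n-1))`, the radius of the round
`n`-sphere of scalar curvature one.  First part: around a pole (`f 0 = 0`, `f > 0` and the
curvature condition on `(0, a)`).  Second part: without a pole (`f > 0` and the curvature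
condition on the whole line). -/
theorem result (n : ℕ) (hn : 3 ≤ n) (f : ℝ → ℝ) (hf : ContDiff ℝ 2 f) :
    (∀ a : ℝ, f 0 = 0 → (∀ r, 0 < r → r < a → 0 < f r) →
      (∀ r, 0 < r → r < a → 1 ≤ warpedScal n f r) →
      ∀ r, 0 ≤ r → r < a → f r ≤ Real.sqrt ((n : ℝ) * ((n : ℝ) - 1))) ∧
    ((∀ r, 0 < f r) → (∀ r, 1 ≤ warpedScal n f r) →
      ∀ r, f r ≤ Real.sqrt ((n : ℝ) * ((n : ℝ) - 1))) :=
  ⟨fun a h0 hpos hscal => warp_le_dim n hn a f hf h0 hpos hscal,
    fun hpos hscal => warp_le_two_ended n hn f hf hpos hscal⟩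

end Vale.Agent.Results.P210.RotSymAllEnds
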