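import Vale.Agent.Lib.P210.Sharp

namespace Vale.Agent.Results.P210.RotSymSharp

open Vale.Agent.Lib.P210

/-- Rotationally symmetric metrics `dr² + f(r)² g_{S^{n-1}}`, `n ≥ 3`, with scalar curvature
`(n-1)(n-2)(1 - f'²)/f² - 2(n-1) f''/f` at least one: the warping function `f` is at most
`sqrt (n (n-1))`, around a pole (first part) and without a pole (second part), and this bound
is attained (third part) by the warping function `f r = R sin (r / R)`, `R = sqrt (n (n-1))`,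
of the round sphere of scalar curvature one. -/
theorem result (n : ℕ) (hn : 3 ≤ n) :
    (∀ f : ℝ → ℝ, ContDiff ℝ 2 f →
      (∀ a : ℝ, f 0 = 0 → (∀ r, 0 < r → r < a → 0 < f r) →
        (∀ r, 0 < r → r < a → 1 ≤ warpedScal n f r) →
        ∀ r, 0 ≤ r → r < a → f r ≤ Real.sqrt ((n : ℝ) * ((n : ℝ) - 1))) ∧
      ((∀ r, 0 < f r) → (∀ r, 1 ≤ warpedScal n f r) →
        ∀ r, f r ≤ Real.sqrt ((n : ℝ) * ((n : ℝ) - 1)))) ∧
    (∃ (f : ℝ → ℝ) (a : ℝ), ContDiff ℝ 2 f ∧ f 0 = 0 ∧ f a = 0 ∧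
      (∀ r, 0 < r → r < a → 0 < f r) ∧ (∀ r, 0 < r → r < a → warpedScal n f r = 1) ∧
      ∃ r, 0 < r ∧ r < a ∧ f r = Real.sqrt ((n : ℝ) * ((n : ℝ) - 1))) := by
  refine ⟨fun f hf => ⟨fun a h0 hpos hscal => warp_le_dim n hn a f hf h0 hpos hscal,
    fun hpos hscal => warp_le_two_ended n hn f hf hpos hscal⟩, ?_⟩
  obtain ⟨h1, h2, h3⟩ := sphere_sharp n hn
  have hn3 : (3 : ℝ) ≤ (n : ℝ) := by exact_mod_cast hn
  have hR2pos : 0 < (n : ℝ) * ((n : ℝ) - 1) := by nlinarith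
  have hRpos : 0 < Real.sqrt ((n : ℝ) * ((n : ℝ) - 1)) := Real.sqrt_pos.2 hR2pos
  refine ⟨fun r : ℝ => Real.sqrt ((n : ℝ) * ((n : ℝ) - 1)) *
      Real.sin (r / Real.sqrt ((n : ℝ) * ((n : ℝ) - 1))),
    Real.pi * Real.sqrt ((n : ℝ) * ((n : ℝ) - 1)), h1, ?_, ?_, fun r hr hra => (h2 r hr hra).1,
    fun r hr hra => (h2 r hr hra).2,
    Real.pi * Real.sqrt ((n : ℝ) * ((n : ℝ) - 1)) / 2, ?_, ?_, h3⟩
  · simp
  · have e : Real.pi * Real.sqrt ((n : ℝ) * ((n : ℝ) - 1)) /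
        Real.sqrt ((n : ℝ) * ((n : ℝ) - 1)) = Real.pi := by
      field_simp
    simp only [e, Real.sin_pi, mul_zero]
  · have := Real.pi_pos
    positivity
  · have := Real.pi_pos
    have h : 0 < Real.pi * Real.sqrt ((n : ℝ) * ((n : ℝ) - 1)) := by positivity
    linarith

end Vale.Agent.Results.P210.RotSymSharp
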