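import Vale.Agent.Lib.P210.Warp

namespace Vale.Agent.Results.P210.RotSymWarpBound

open Vale.Agent.Lib.P210

/-- Rotationally symmetric metrics `dr² + f(r)² g_{S^{n-1}}`, `n ≥ 3`, around a pole
(`f 0 = 0`, `f > 0` on `(0, a)`): if the scalar curvature
`(n-1)(n-2)(1 - f'²)/f² - 2(n-1) f''/f` is at least one on `(0, a)`, then the warping
function, which is the radius of the geodesic sphere at distance `r` from the pole, is at
most `sqrt (n (n-1))`, the radius of the round `n`-sphere of scalar curvature one.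
No condition on `f' 0` is needed. -/
theorem result (n : ℕ) (hn : 3 ≤ n) (a : ℝ) (f : ℝ → ℝ) (hf : ContDiff ℝ 2 f)
    (h0 : f 0 = 0) (hpos : ∀ r, 0 < r → r < a → 0 < f r)
    (hscal : ∀ r, 0 < r → r < a → 1 ≤ warpedScal n f r) :
    ∀ r, 0 ≤ r → r < a → f r ≤ Real.sqrt ((n : ℝ) * ((n : ℝ) - 1)) :=
  warp_le_dim n hn a f hf h0 hpos hscal

end Vale.Agent.Results.P210.RotSymWarpBound
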